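import Vale.Agent.P062.RunA0
import Vale.Agent.P062.RunA1
import Vale.Agent.P062.RunA2
import Vale.Agent.P062.RunA3
import Vale.Agent.P062.RunA4
import Vale.Agent.P062.RunA5
import Vale.Agent.P062.RunA6
import Vale.Agent.P062.RunA7

namespace Vale.Agent.P062

open Tr

theorem goodA : Good tA.get (nat_lit 19778) :=
  (gA_7 (gA_6 (gA_5 (gA_4 (gA_3 (gA_2 (gA_1 (gA_0 (good_zero _)))))))))

theorem winA : Win 28 ∅ ∅ :=
  win_of_check (t := 12) (goodA 19777 (by decide)) (by decide +kernel)

end Vale.Agent.P062
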