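import Vale.Agent.P062.Defs

/-! Winning positions, cards, and a verified checker for certificates. -/

namespace Vale.Agent.P062

abbrev Cell := ℤ × ℤ

def HasCopy (M : Finset Cell) : Prop := ∃ T, IsCopy T ∧ ∀ q ∈ T, q ∈ M

/-- Maker, to move, owns a copy after at most `n` own moves. -/
def Win : ℕ → Finset Cell → Finset Cell → Prop
  | 0, _, _ => False
  | n + 1, M, B => ∃ y, y ∉ M ∧ y ∉ B ∧
      (HasCopy (insert y M) ∨ ∀ b, b ∉ insert y M → b ∉ B → Win n (insert y M) (insert b B))

lemma Win.succ : ∀ {n : ℕ} {M B : Finset Cell}, Win n M B → Win (n + 1) M B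
  | 0, _, _, h => h.elim
  | _ + 1, _, _, ⟨y, h1, h2, h3⟩ =>
    ⟨y, h1, h2, h3.imp id fun h b hb hb' => Win.succ (h b hb hb')⟩

lemma Win.mono {n m : ℕ} (h : n ≤ m) {M B : Finset Cell} (w : Win n M B) : Win m M B := by
  induction h with
  | refl => exact w
  | step _ ih => exact ih.succ

def psi (n : ℕ) : Cell := (((n % 36 : ℕ) : ℤ), ((n / 36 : ℕ) : ℤ))

lemma psi_inj {a b : ℕ} (h : psi a = psi b) : a = b := by
  simp only [psi, Prod.mk.injEq] at h
  omega

def Col (z t : ℕ) : Prop := ∀ i, z.testBit i = true → 4 ≤ (i + t) % 36 ∧ (i + t) % 36 < 32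

def In (z t : ℕ) (M : Finset Cell) : Prop := ∀ i, z.testBit i = true → psi (i + t) ∈ M

def Out (z t : ℕ) (B : Finset Cell) : Prop := ∀ i, z.testBit i = true → psi (i + t) ∉ B

def Pat (z : ℕ) : Prop := ∀ t, Col z t → ∀ M, In z t M → HasCopy M

lemma pat0 : Pat 1649267441679 := by
  intro t hc M hM
  have h0 := hc 0 (by decide)
  refine ⟨_, ⟨psi (0 + t), 1, 1, by simp, by simp, Or.inl rfl⟩, ?_⟩
  rintro q ⟨p, hp, rfl⟩
  simp only [snaky, List.mem_cons, List.not_mem_nil, or_false] at hp
  rcases hp with rfl | rfl | rfl | rfl | rfl | rfl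
  · convert hM 0 (by decide) using 1
    simp only [psi, Prod.mk.injEq]
    omega
  · convert hM 1 (by decide) using 1
    simp only [psi, Prod.mk.injEq]
    omega
  · convert hM 2 (by decide) using 1
    simp only [psi, Prod.mk.injEq]
    omega
  · convert hM 3 (by decide) using 1
    simp only [psi, Prod.mk.injEq]
    omega
  · convert hM 39 (by decide) using 1
    simp only [psi, Prod.mk.injEq]
    omega
  · convert hM 40 (by decide) using 1
    simp only [psi, Prod.mk.injEq]
    omega

lemma pat1 : Pat 103079215119 := by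
  intro t hc M hM
  have h0 := hc 3 (by decide)
  refine ⟨_, ⟨psi (3 + t), -1, 1, by simp, by simp, Or.inl rfl⟩, ?_⟩
  rintro q ⟨p, hp, rfl⟩
  simp only [snaky, List.mem_cons, List.not_mem_nil, or_false] at hp
  rcases hp with rfl | rfl | rfl | rfl | rfl | rfl
  · convert hM 3 (by decide) using 1
    simp only [psi, Prod.mk.injEq]
    omega
  · convert hM 2 (by decide) using 1
    simp only [psi, Prod.mk.injEq]
    omega
  · convert hM 1 (by decide) using 1
    simp only [psi, Prod.mk.injEq]
    omega
  · convert hM 0 (by decide) using 1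
    simp only [psi, Prod.mk.injEq]
    omega
  · convert hM 36 (by decide) using 1
    simp only [psi, Prod.mk.injEq]
    omega
  · convert hM 35 (by decide) using 1
    simp only [psi, Prod.mk.injEq]
    omega

lemma pat2 : Pat 128849018883 := by
  intro t hc M hM
  have h0 := hc 33 (by decide)
  refine ⟨_, ⟨psi (33 + t), 1, -1, by simp, by simp, Or.inl rfl⟩, ?_⟩
  rintro q ⟨p, hp, rfl⟩
  simp only [snaky, List.mem_cons, List.not_mem_nil, or_false] at hp
  rcases hp with rfl | rfl | rfl | rfl | rfl | rfl
  · convert hM 33 (by decide) using 1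
    simp only [psi, Prod.mk.injEq]
    omega
  · convert hM 34 (by decide) using 1
    simp only [psi, Prod.mk.injEq]
    omega
  · convert hM 35 (by decide) using 1
    simp only [psi, Prod.mk.injEq]
    omega
  · convert hM 36 (by decide) using 1
    simp only [psi, Prod.mk.injEq]
    omega
  · convert hM 0 (by decide) using 1
    simp only [psi, Prod.mk.injEq]
    omega
  · convert hM 1 (by decide) using 1
    simp only [psi, Prod.mk.injEq]
    omega

lemma pat3 : Pat 2061584302083 := by
  intro t hc M hM
  have h0 := hc 40 (by decide)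
  refine ⟨_, ⟨psi (40 + t), -1, -1, by simp, by simp, Or.inl rfl⟩, ?_⟩
  rintro q ⟨p, hp, rfl⟩
  simp only [snaky, List.mem_cons, List.not_mem_nil, or_false] at hp
  rcases hp with rfl | rfl | rfl | rfl | rfl | rfl
  · convert hM 40 (by decide) using 1
    simp only [psi, Prod.mk.injEq]
    omega
  · convert hM 39 (by decide) using 1
    simp only [psi, Prod.mk.injEq]
    omega
  · convert hM 38 (by decide) using 1
    simp only [psi, Prod.mk.injEq]
    omega
  · convert hM 37 (by decide) using 1
    simp only [psi, Prod.mk.injEq]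
    omega
  · convert hM 1 (by decide) using 1
    simp only [psi, Prod.mk.injEq]
    omega
  · convert hM 0 (by decide) using 1
    simp only [psi, Prod.mk.injEq]
    omega

lemma pat4 : Pat 44601490398034801944051439092129129438380033 := by
  intro t hc M hM
  have h0 := hc 0 (by decide)
  refine ⟨_, ⟨psi (0 + t), 1, 1, by simp, by simp, Or.inr rfl⟩, ?_⟩
  rintro q ⟨p, hp, rfl⟩
  simp only [snaky, List.mem_cons, List.not_mem_nil, or_false] at hp
  rcases hp with rfl | rfl | rfl | rfl | rfl | rfl
  · convert hM 0 (by decide) using 1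
    simp only [psi, Prod.mk.injEq]
    omega
  · convert hM 36 (by decide) using 1
    simp only [psi, Prod.mk.injEq]
    omega
  · convert hM 72 (by decide) using 1
    simp only [psi, Prod.mk.injEq]
    omega
  · convert hM 108 (by decide) using 1
    simp only [psi, Prod.mk.injEq]
    omega
  · convert hM 109 (by decide) using 1
    simp only [psi, Prod.mk.injEq]
    omega
  · convert hM 145 (by decide) using 1
    simp only [psi, Prod.mk.injEq]
    omega

lemma pat5 : Pat 11150372599752089401260221592981853148545025 := by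
  intro t hc M hM
  have h0 := hc 0 (by decide)
  refine ⟨_, ⟨psi (0 + t), -1, 1, by simp, by simp, Or.inr rfl⟩, ?_⟩
  rintro q ⟨p, hp, rfl⟩
  simp only [snaky, List.mem_cons, List.not_mem_nil, or_false] at hp
  rcases hp with rfl | rfl | rfl | rfl | rfl | rfl
  · convert hM 0 (by decide) using 1
    simp only [psi, Prod.mk.injEq]
    omega
  · convert hM 36 (by decide) using 1
    simp only [psi, Prod.mk.injEq]
    omega
  · convert hM 72 (by decide) using 1
    simp only [psi, Prod.mk.injEq]
    omega
  · convert hM 108 (by decide) using 1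
    simp only [psi, Prod.mk.injEq]
    omega
  · convert hM 107 (by decide) using 1
    simp only [psi, Prod.mk.injEq]
    omega
  · convert hM 143 (by decide) using 1
    simp only [psi, Prod.mk.injEq]
    omega

lemma pat6 : Pat 11150372599427570847599433682957296665100289 := by
  intro t hc M hM
  have h0 := hc 143 (by decide)
  refine ⟨_, ⟨psi (143 + t), 1, -1, by simp, by simp, Or.inr rfl⟩, ?_⟩
  rintro q ⟨p, hp, rfl⟩
  simp only [snaky, List.mem_cons, List.not_mem_nil, or_false] at hp
  rcases hp with rfl | rfl | rfl | rfl | rfl | rfl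
  · convert hM 143 (by decide) using 1
    simp only [psi, Prod.mk.injEq]
    omega
  · convert hM 107 (by decide) using 1
    simp only [psi, Prod.mk.injEq]
    omega
  · convert hM 71 (by decide) using 1
    simp only [psi, Prod.mk.injEq]
    omega
  · convert hM 35 (by decide) using 1
    simp only [psi, Prod.mk.injEq]
    omega
  · convert hM 36 (by decide) using 1
    simp only [psi, Prod.mk.injEq]
    omega
  · convert hM 0 (by decide) using 1
    simp only [psi, Prod.mk.injEq]
    omega

lemma pat7 : Pat 44601490397710283390397734731828980501970945 := by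
  intro t hc M hM
  have h0 := hc 145 (by decide)
  refine ⟨_, ⟨psi (145 + t), -1, -1, by simp, by simp, Or.inr rfl⟩, ?_⟩
  rintro q ⟨p, hp, rfl⟩
  simp only [snaky, List.mem_cons, List.not_mem_nil, or_false] at hp
  rcases hp with rfl | rfl | rfl | rfl | rfl | rfl
  · convert hM 145 (by decide) using 1
    simp only [psi, Prod.mk.injEq]
    omega
  · convert hM 109 (by decide) using 1
    simp only [psi, Prod.mk.injEq]
    omega
  · convert hM 73 (by decide) using 1
    simp only [psi, Prod.mk.injEq]
    omega
  · convert hM 37 (by decide) using 1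
    simp only [psi, Prod.mk.injEq]
    omega
  · convert hM 36 (by decide) using 1
    simp only [psi, Prod.mk.injEq]
    omega
  · convert hM 0 (by decide) using 1
    simp only [psi, Prod.mk.injEq]
    omega

structure Card where
  c : ℕ
  z : ℕ
  h : ℕ

def Valid (k : Card) : Prop :=
  ∀ t, Col k.z t → ∀ M B, In k.c t M → Out k.z t B → Win k.h M B

/-- Maker can arrange to own the pivot cell after a legal move. -/
lemma exists_move (M B : Finset Cell) {p : Cell} (hp : p ∉ B) :
    ∃ y, y ∉ M ∧ y ∉ B ∧ p ∈ insert y M := by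
  by_cases h : p ∈ M
  · obtain ⟨y, hy⟩ := Infinite.exists_notMem_finset (M ∪ B)
    rw [Finset.mem_union, not_or] at hy
    exact ⟨y, hy.1, hy.2, Finset.mem_insert_of_mem h⟩
  · exact ⟨p, h, hp, Finset.mem_insert_self _ _⟩

lemma in_insert {w y t : ℕ} {M : Finset Cell} {q : Cell}
    (h : In (w ^^^ (w &&& (1 <<< y))) t M) (hq : psi (y + t) ∈ insert q M) :
    In w t (insert q M) := by
  intro i hi
  by_cases e : i = y
  · rw [e]; exact hq
  · refine Finset.mem_insert_of_mem (h i ?_)
    rw [Nat.testBit_xor, Nat.testBit_and, hi, Nat.one_shiftLeft, Nat.testBit_two_pow_of_ne (Ne.symm e)]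
    rfl

lemma col_left {a b t : ℕ} (h : Col (a ||| b) t) : Col a t :=
  fun i hi => h i (by rw [Nat.testBit_or, hi]; rfl)
lemma col_right {a b t : ℕ} (h : Col (a ||| b) t) : Col b t :=
  fun i hi => h i (by rw [Nat.testBit_or, hi, Bool.or_true])
lemma in_left {a b t : ℕ} {M : Finset Cell} (h : In (a ||| b) t M) : In a t M :=
  fun i hi => h i (by rw [Nat.testBit_or, hi]; rfl)
lemma in_right {a b t : ℕ} {M : Finset Cell} (h : In (a ||| b) t M) : In b t M :=
  fun i hi => h i (by rw [Nat.testBit_or, hi, Bool.or_true])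
lemma out_left {a b t : ℕ} {M : Finset Cell} (h : Out (a ||| b) t M) : Out a t M :=
  fun i hi => h i (by rw [Nat.testBit_or, hi]; rfl)
lemma out_right {a b t : ℕ} {M : Finset Cell} (h : Out (a ||| b) t M) : Out b t M :=
  fun i hi => h i (by rw [Nat.testBit_or, hi, Bool.or_true])

lemma bit_shift {z d i : ℕ} (h : z.testBit i = true) : (z <<< d).testBit (i + d) = true := by
  rw [Nat.testBit_shiftLeft]
  simp [h]

lemma valid_base {z : ℕ} (hz : Pat z) (y : ℕ) :
    Valid ⟨z ^^^ (z &&& (1 <<< y)), z ||| (1 <<< y), 1⟩ := by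
  intro t hc M B hM hB
  have hy : psi (y + t) ∉ B := out_right hB y (by rw [Nat.one_shiftLeft, Nat.testBit_two_pow_self])
  obtain ⟨q, h1, h2, h3⟩ := exists_move M B hy
  exact ⟨q, h1, h2, Or.inl (hz t (col_left hc) _ (in_insert hM h3))⟩

lemma Valid.shift {k : Card} (hk : Valid k) (d : ℕ) : Valid ⟨k.c <<< d, k.z <<< d, k.h⟩ := by
  intro t hc M B hM hB
  refine hk (d + t) (fun i hi => ?_) M B (fun i hi => ?_) (fun i hi => ?_)
  · rw [← add_assoc]; exact hc _ (bit_shift hi)
  · rw [← add_assoc]; exact hM _ (bit_shift hi)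
  · rw [← add_assoc]; exact hB _ (bit_shift hi)

/-- invariant of the accumulation of children -/
def Acc (Z U I h : ℕ) : Prop :=
  ∀ t, Col Z t → ∀ M B, In U t M → Out Z t B → ∀ b, (∀ i, I.testBit i = true → psi (i + t) ≠ b) →
    Win h M (insert b B)

lemma acc_init {c z h : ℕ} (hk : Valid ⟨c, z, h⟩) : Acc z c z h := by
  intro t hc M B hM hB b hb
  refine hk t hc M _ hM fun i hi => ?_
  rw [Finset.mem_insert, not_or]
  exact ⟨hb i hi, hB i hi⟩

lemma acc_step {Z U I h c z h' : ℕ} (ha : Acc Z U I h) (hk : Valid ⟨c, z, h'⟩) :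
    Acc (Z ||| z) (U ||| c) (I &&& z) (cond (Nat.ble h h') h' h) := by
  intro t hc M B hM hB b hb
  have e1 : h ≤ cond (Nat.ble h h') h' h := by
    cases hh : Nat.ble h h'
    · exact le_rfl
    · exact Nat.le_of_ble_eq_true hh
  have e2 : h' ≤ cond (Nat.ble h h') h' h := by
    cases hh : Nat.ble h h'
    · have := Nat.not_le_of_not_ble_eq_true (by rw [hh]; simp : ¬ Nat.ble h h' = true)
      exact (not_le.1 this).le
    · exact le_rfl
  by_cases hz : ∀ i, z.testBit i = true → psi (i + t) ≠ b
  · exact (acc_init hk t (col_right hc) M B (in_right hM) (out_right hB) b hz).mono e2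
  · push Not at hz
    obtain ⟨i, hi, hib⟩ := hz
    refine (ha t (col_left hc) M B (in_left hM) (out_left hB) b fun j hj hjb => ?_).mono e1
    have : j = i := by have := psi_inj (hjb.trans hib.symm); omega
    subst this
    exact hb j (by rw [Nat.testBit_and, hj, hi]; rfl) hjb

lemma acc_finish {Z U I h : ℕ} (ha : Acc Z U I h) (y : ℕ) :
    Valid ⟨(U ||| I) ^^^ ((U ||| I) &&& (1 <<< y)), Z ||| (1 <<< y), Nat.succ h⟩ := by
  intro t hc M B hM hB
  have hy : psi (y + t) ∉ B := out_right hB y (by rw [Nat.one_shiftLeft, Nat.testBit_two_pow_self])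
  obtain ⟨q, h1, h2, h3⟩ := exists_move M B hy
  have h4 := in_insert hM h3
  refine ⟨q, h1, h2, Or.inr fun b hb _ => ?_⟩
  exact ha t (col_left hc) _ B (in_left h4) (out_left hB) b fun i hi e => hb (e ▸ in_right h4 i hi)

/-! The checker, written for evaluation by the kernel. -/

noncomputable def force {α : Type} (n : ℕ) (k : ℕ → α) : α :=
  Nat.rec (k 0) (fun m _ => k (Nat.succ m)) n

lemma force_eq {α : Type} (n : ℕ) (k : ℕ → α) : force n k = k n := by cases n <;> rfl

noncomputable def forceC {α : Type} (v : Card) (k : ℕ → ℕ → ℕ → α) : α := Card.rec k v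

def pat (s : ℕ) : ℕ :=
  cond (Nat.ble s 3) (cond (Nat.ble s 1) (cond (Nat.ble s 0) 1649267441679 103079215119) (cond (Nat.ble s 2) 128849018883 2061584302083))
    (cond (Nat.ble s 5) (cond (Nat.ble s 4) 44601490398034801944051439092129129438380033 11150372599752089401260221592981853148545025) (cond (Nat.ble s 6) 11150372599427570847599433682957296665100289 44601490397710283390397734731828980501970945))

lemma pat_pat (s : ℕ) : Pat (pat s) := by
  unfold pat
  cases Nat.ble s 3 <;> cases Nat.ble s 1 <;> cases Nat.ble s 0 <;> cases Nat.ble s 2 <;>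
    cases Nat.ble s 5 <;> cases Nat.ble s 4 <;> cases Nat.ble s 6 <;>
    first | exact pat0 | exact pat1 | exact pat2 | exact pat3 | exact pat4 | exact pat5 | exact pat6 | exact pat7

noncomputable def base (s y : ℕ) : Card :=
  force (pat s) fun z => force (Nat.shiftLeft 1 y) fun p => force (Nat.xor z (Nat.land z p)) fun c =>
    force (Nat.lor z p) fun z' => ⟨c, z', 1⟩

lemma base_valid (s y : ℕ) : Valid (base s y) := by
  simp only [base, force_eq]
  exact valid_base (pat_pat s) y

inductive Tr where
  | lf : ℕ → ℕ → ℕ → Tr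
  | nd : Tr → Tr → Tr → Tr → Tr

noncomputable def Tr.get (t : Tr) : ℕ → Card :=
  Tr.rec (fun c z h _ => ⟨c, z, h⟩) (fun _ _ _ _ g0 g1 g2 g3 n =>
    force (Nat.shiftRight n 2) fun m => Nat.rec (g0 m) (fun k _ => Nat.rec (g1 m)
      (fun k _ => Nat.rec (g2 m) (fun _ _ => g3 m) k) k) (Nat.land n 3)) t

noncomputable def finish (y Z U I h : ℕ) : Card :=
  force (Nat.shiftLeft 1 y) fun p => force (Nat.lor U I) fun w =>
    force (Nat.xor w (Nat.land w p)) fun c => force (Nat.lor Z p) fun z => ⟨c, z, Nat.succ h⟩

noncomputable def kids (f : ℕ → Card) (y cnt : ℕ) : ℕ → ℕ → ℕ → ℕ → ℕ → Card :=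
  Nat.rec (fun _ Z U I h => finish y Z U I h)
    (fun _ ih data Z U I h => force (Nat.land data 32767) fun id => forceC (f id) fun c z h' =>
      force (Nat.land (Nat.shiftRight data 15) 1023) fun d => force (Nat.shiftLeft z d) fun z' =>
      force (Nat.lor Z z') fun Z' => force (Nat.lor U (Nat.shiftLeft c d)) fun U' =>
      force (Nat.land I z') fun I' => force (cond (Nat.ble h h') h' h) fun h'' =>
      force (Nat.shiftRight data 25) fun data' => ih data' Z' U' I' h'') cnt

lemma kids_valid {f : ℕ → Card} (hf : ∀ j, Valid (f j)) (y cnt : ℕ) :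
    ∀ data Z U I h, Acc Z U I h → Valid (kids f y cnt data Z U I h) := by
  induction cnt with
  | zero =>
    intro data Z U I h ha
    change Valid (finish y Z U I h)
    simp only [finish, force_eq]
    exact acc_finish ha y
  | succ n ih =>
    intro data Z U I h ha
    change Valid (force (Nat.land data 32767) fun id => forceC (f id) fun c z h' =>
      force (Nat.land (Nat.shiftRight data 15) 1023) fun d => force (Nat.shiftLeft z d) fun z' =>
      force (Nat.lor Z z') fun Z' => force (Nat.lor U (Nat.shiftLeft c d)) fun U' =>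
      force (Nat.land I z') fun I' => force (cond (Nat.ble h h') h' h) fun h'' =>
      force (Nat.shiftRight data 25) fun data' => kids f y n data' Z' U' I' h'')
    rw [force_eq]
    have hv := hf (Nat.land data 32767)
    generalize f (Nat.land data 32767) = v at hv
    obtain ⟨c, z, h'⟩ := v
    simp only [forceC, force_eq]
    exact ih _ _ _ _ _ (acc_step ha (hv.shift _))

/-- decode one entry: 6 bits number of children, 10 bits pivot, then 25 bits for each child -/
noncomputable def entry (f : ℕ → Card) (e : ℕ) : Card :=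
  force (Nat.land (Nat.shiftRight e 6) 1023) fun y => force (Nat.shiftRight e 16) fun data =>
    Nat.rec (base data y) (fun cnt _ =>
      force (Nat.land data 32767) fun id => forceC (f id) fun c z h =>
      force (Nat.land (Nat.shiftRight data 15) 1023) fun d => force (Nat.shiftLeft z d) fun z' =>
      force (Nat.shiftLeft c d) fun c' => force (Nat.shiftRight data 25) fun data' =>
      kids f y cnt data' z' c' z' h) (Nat.land e 63)

lemma entry_valid {f : ℕ → Card} (hf : ∀ j, Valid (f j)) (e : ℕ) : Valid (entry f e) := by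
  unfold entry
  rw [force_eq, force_eq]
  cases Nat.land e 63 with
  | zero => exact base_valid _ _
  | succ cnt =>
    have hv := hf (Nat.land (Nat.shiftRight e 16) 32767)
    change Valid (force _ _)
    rw [force_eq]
    generalize f (Nat.land (Nat.shiftRight e 16) 32767) = v at hv
    obtain ⟨c, z, h'⟩ := v
    simp only [forceC, force_eq]
    exact kids_valid hf _ _ _ _ _ _ _ (acc_init (hv.shift _))

/-- all cards of the table below `n` are valid -/
def Good (g : ℕ → Card) (n : ℕ) : Prop := ∀ j < n, Valid (g j)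

lemma good_zero (g : ℕ → Card) : Good g 0 := fun _ h => absurd h (Nat.not_lt_zero _)

noncomputable def look (g : ℕ → Card) (n j : ℕ) : Card :=
  Bool.rec (base 0 0) (g j) (Nat.ble (Nat.succ j) n)

lemma look_valid {g : ℕ → Card} {n : ℕ} (h : Good g n) (j : ℕ) : Valid (look g n j) := by
  unfold look
  cases hh : Nat.ble (Nat.succ j) n
  · exact base_valid 0 0
  · exact h j (Nat.le_of_ble_eq_true hh)

noncomputable def chk (g : ℕ → Card) (n' : ℕ) (l : List ℕ) : ℕ → Bool :=
  List.rec (fun n => Nat.beq n n') (fun e _ ih n => forceC (entry (look g n) e) fun c z h =>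
    forceC (g n) fun c' z' h' => Bool.rec false (Bool.rec false (Bool.rec false
      (force (Nat.succ n) ih) (Nat.beq h h')) (Nat.beq z z')) (Nat.beq c c')) l

lemma good_of_chk {g : ℕ → Card} {n' : ℕ} (l : List ℕ) :
    ∀ n, chk g n' l n = true → Good g n → Good g n' := by
  induction l with
  | nil => intro n h hg; rw [← Nat.eq_of_beq_eq_true h]; exact hg
  | cons e l ih =>
    intro n h hg
    change (forceC (entry (look g n) e) fun c z h =>
      forceC (g n) fun c' z' h' => Bool.rec false (Bool.rec false (Bool.rec false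
      (force (Nat.succ n) (chk g n' l)) (Nat.beq h h')) (Nat.beq z z')) (Nat.beq c c')) = true at h
    have hv := entry_valid (look_valid hg) e
    generalize entry (look g n) e = v at h hv
    obtain ⟨c, z, k⟩ := v
    rcases hw : g n with ⟨c', z', k'⟩
    rw [hw] at h
    simp only [forceC, force_eq] at h
    cases h1 : Nat.beq c c'
    · rw [h1] at h; exact absurd h Bool.false_ne_true
    cases h2 : Nat.beq z z'
    · rw [h1, h2] at h; exact absurd h Bool.false_ne_true
    cases h3 : Nat.beq k k'
    · rw [h1, h2, h3] at h; exact absurd h Bool.false_ne_true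
    rw [h1, h2, h3] at h
    refine ih _ h fun j hj => ?_
    rcases Nat.lt_succ_iff_lt_or_eq.1 hj with h' | rfl
    · exact hg j h'
    · rw [hw, ← Nat.eq_of_beq_eq_true h1, ← Nat.eq_of_beq_eq_true h2, ← Nat.eq_of_beq_eq_true h3]
      exact hv

noncomputable def colOk (z t : ℕ) (n : ℕ) : Bool :=
  Nat.rec (Nat.beq (Nat.shiftRight z 1000) 0) (fun i ih => (!(z.testBit i) ||
    (Nat.ble 4 ((i + t) % 36) && Nat.ble ((i + t) % 36) 31)) && ih) n

lemma colOk_col {z t : ℕ} (h : colOk z t 1000 = true) : Col z t := by
  have key : ∀ n, colOk z t n = true → Nat.shiftRight z 1000 = 0 ∧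
      ∀ i < n, z.testBit i = true → 4 ≤ (i + t) % 36 ∧ (i + t) % 36 < 32 := by
    intro n
    induction n with
    | zero => intro h; exact ⟨Nat.eq_of_beq_eq_true h, fun i hi => absurd hi (Nat.not_lt_zero i)⟩
    | succ n ih =>
      intro h
      change ((!(z.testBit n) || (Nat.ble 4 ((n + t) % 36) && Nat.ble ((n + t) % 36) 31)) &&
        colOk z t n) = true at h
      rw [Bool.and_eq_true] at h
      refine ⟨(ih h.2).1, fun i hi hb => ?_⟩
      rcases Nat.lt_succ_iff_lt_or_eq.1 hi with h' | rfl
      · exact (ih h.2).2 i h' hb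
      · have h1 := h.1
        rw [hb] at h1
        simp only [Bool.not_true, Bool.false_or, Bool.and_eq_true, Nat.ble_eq] at h1
        omega
  obtain ⟨h1, h2⟩ := key 1000 h
  intro i hi
  refine h2 i ?_ hi
  by_contra hcon
  have h3 : (z >>> 1000).testBit (i - 1000) = true := by
    rw [Nat.testBit_shiftRight, show 1000 + (i - 1000) = i by omega]; exact hi
  have h4 : z >>> 1000 = 0 := h1
  rw [h4, Nat.zero_testBit] at h3
  exact Bool.false_ne_true h3

noncomputable def check (v : Card) (t H : ℕ) : Bool :=
  forceC v fun c z h => Nat.beq c 0 && Nat.ble h H && colOk z t 1000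

theorem win_of_check {v : Card} (hv : Valid v) {t H : ℕ} (h : check v t H = true) :
    Win H ∅ ∅ := by
  obtain ⟨c, z, h'⟩ := v
  simp only [check, forceC, Bool.and_eq_true, Nat.ble_eq] at h
  obtain ⟨⟨h1, h2⟩, h3⟩ := h
  have h1' : c = 0 := Nat.eq_of_beq_eq_true h1
  subst h1'
  exact (hv t (colOk_col h3) ∅ ∅ (fun i hi => by simp at hi) (fun i _ => by simp)).mono h2

end Vale.Agent.P062
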