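import Mathlib

namespace Vale.Agent.P062

/-- The six cells of the hexomino Snaky. -/
def snaky : List (ℤ × ℤ) := [(0, 0), (1, 0), (2, 0), (3, 0), (3, 1), (4, 1)]

/-- `T` is an allowed copy `t + R(S)` of Snaky, where `R` is one of the eight signed permutation
matrices: `(x, y) ↦ (ε x, δ y)` or `(x, y) ↦ (ε y, δ x)` with signs `ε, δ = ± 1`. -/
def IsCopy (T : Set (ℤ × ℤ)) : Prop :=
  ∃ (t : ℤ × ℤ) (ε δ : ℤ), (ε = 1 ∨ ε = -1) ∧ (δ = 1 ∨ δ = -1) ∧
    (T = {q | ∃ p ∈ snaky, q = (t.1 + ε * p.1, t.2 + δ * p.2)} ∨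
     T = {q | ∃ p ∈ snaky, q = (t.1 + ε * p.2, t.2 + δ * p.1)})

/-- The cell claimed by Maker at its turn number `n` (`n = 0` is the first move of the game), when
Maker follows the strategy `σ` and Breaker claims the cells `β 0, β 1, …`: the strategy sees only
the list of the `n` earlier moves of Breaker. -/
def makerMove (σ : List (ℤ × ℤ) → ℤ × ℤ) (β : ℕ → ℤ × ℤ) (n : ℕ) : ℤ × ℤ :=
  σ ((List.range n).map β)

/-- The first `n` moves of Breaker are legal: the move `β j`, made right after the move number `j`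
of Maker, claims a cell that neither player has claimed before. -/
def BreakerLegal (σ : List (ℤ × ℤ) → ℤ × ℤ) (β : ℕ → ℤ × ℤ) (n : ℕ) : Prop :=
  ∀ j < n, (∀ i ≤ j, β j ≠ makerMove σ β i) ∧ ∀ i < j, β j ≠ β i

end Vale.Agent.P062
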