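import Vale.Agent.P062.Check

/-! From a winning position to a strategy. -/

namespace Vale.Agent.P062

def GoodMove (n : ℕ) (M B : Finset Cell) (y : Cell) : Prop :=
  y ∉ M ∧ y ∉ B ∧ (Win (n + 1) M B →
    HasCopy (insert y M) ∨ ∀ b, b ∉ insert y M → b ∉ B → Win n (insert y M) (insert b B))

lemma exists_goodMove (n : ℕ) (M B : Finset Cell) : ∃ y, GoodMove n M B y := by
  by_cases h : Win (n + 1) M B
  · obtain ⟨y, h1, h2, h3⟩ := h
    exact ⟨y, h1, h2, fun _ => h3⟩
  · obtain ⟨y, hy⟩ := Infinite.exists_notMem_finset (M ∪ B)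
    rw [Finset.mem_union, not_or] at hy
    exact ⟨y, hy.1, hy.2, fun w => absurd w h⟩

abbrev State := ℕ × Finset Cell × Finset Cell

noncomputable def mv (s : State) : Cell := (exists_goodMove s.1 s.2.1 s.2.2).choose

lemma mv_good (s : State) : GoodMove s.1 s.2.1 s.2.2 (mv s) :=
  (exists_goodMove s.1 s.2.1 s.2.2).choose_spec

noncomputable def step (s : State) (b : Cell) : State :=
  (s.1 - 1, insert (mv s) s.2.1, insert b s.2.2)

noncomputable def strat (H : ℕ) (l : List Cell) : Cell := mv (l.foldl step (H, ∅, ∅))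

noncomputable def st (H : ℕ) (β : ℕ → Cell) (n : ℕ) : State :=
  ((List.range n).map β).foldl step (H, ∅, ∅)

lemma st_succ (H : ℕ) (β : ℕ → Cell) (n : ℕ) : st H β (n + 1) = step (st H β n) (β n) := by
  simp [st, List.range_succ, List.foldl_append]

lemma move_eq (H : ℕ) (β : ℕ → Cell) (n : ℕ) : makerMove (strat H) β n = mv (st H β n) := rfl

lemma st_fst (H : ℕ) (β : ℕ → Cell) (n : ℕ) : (st H β n).1 = H - n := by
  induction n with
  | zero => rfl
  | succ n ih => rw [st_succ, step, ih]; rfl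

lemma mem_M (H : ℕ) (β : ℕ → Cell) (n : ℕ) (q : Cell) :
    q ∈ (st H β n).2.1 ↔ ∃ i < n, makerMove (strat H) β i = q := by
  induction n with
  | zero => simp [st]
  | succ n ih =>
    rw [st_succ, step]
    simp only [Finset.mem_insert, ih]
    constructor
    · rintro (h | ⟨i, hi, h⟩)
      · exact ⟨n, Nat.lt_succ_self n, h.symm⟩
      · exact ⟨i, Nat.lt_succ_of_lt hi, h⟩
    · rintro ⟨i, hi, h⟩
      rcases Nat.lt_succ_iff_lt_or_eq.1 hi with h' | rfl
      · exact Or.inr ⟨i, h', h⟩
      · exact Or.inl h.symm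

lemma mem_B (H : ℕ) (β : ℕ → Cell) (n : ℕ) (q : Cell) :
    q ∈ (st H β n).2.2 ↔ ∃ i < n, β i = q := by
  induction n with
  | zero => simp [st]
  | succ n ih =>
    rw [st_succ, step]
    simp only [Finset.mem_insert, ih]
    constructor
    · rintro (h | ⟨i, hi, h⟩)
      · exact ⟨n, Nat.lt_succ_self n, h.symm⟩
      · exact ⟨i, Nat.lt_succ_of_lt hi, h⟩
    · rintro ⟨i, hi, h⟩
      rcases Nat.lt_succ_iff_lt_or_eq.1 hi with h' | rfl
      · exact Or.inr ⟨i, h', h⟩
      · exact Or.inl h.symm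

lemma strat_legal (H : ℕ) (β : ℕ → Cell) (n i : ℕ) (hi : i < n) :
    makerMove (strat H) β n ≠ makerMove (strat H) β i ∧ makerMove (strat H) β n ≠ β i := by
  have h := mv_good (st H β n)
  refine ⟨fun e => h.1 ?_, fun e => h.2.1 ?_⟩
  · rw [mem_M]; exact ⟨i, hi, e.symm⟩
  · rw [mem_B]; exact ⟨i, hi, e.symm⟩

lemma HasCopy.insert {M : Finset Cell} (h : HasCopy M) (y : Cell) : HasCopy (insert y M) := by
  obtain ⟨T, h1, h2⟩ := h
  exact ⟨T, h1, fun q hq => Finset.mem_insert_of_mem (h2 q hq)⟩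

lemma strat_inv {H : ℕ} (w : Win (H + 1) ∅ ∅) (β : ℕ → Cell) (hβ : BreakerLegal (strat H) β H) :
    ∀ n ≤ H, HasCopy (st H β n).2.1 ∨ Win (H - n + 1) (st H β n).2.1 (st H β n).2.2 := by
  intro n
  induction n with
  | zero => intro _; exact Or.inr w
  | succ n ih =>
    intro hn
    rcases ih (Nat.le_of_succ_le hn) with h | h
    · left; rw [st_succ]; exact h.insert _
    · have g := (mv_good (st H β n)).2.2
      rw [st_fst] at g
      rcases g h with g | g
      · left; rw [st_succ]; exact g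
      · right
        have e : H - (n + 1) + 1 = H - n := by omega
        rw [e, st_succ]
        obtain ⟨l1, l2⟩ := hβ n hn
        refine g (β n) (fun hm => ?_) (fun hm => ?_)
        · have : β n ∈ (st H β (n + 1)).2.1 := by rw [st_succ]; exact hm
          rw [mem_M] at this
          obtain ⟨i, hi, e⟩ := this
          exact l1 i (Nat.lt_succ_iff.1 hi) e.symm
        · rw [mem_B] at hm
          obtain ⟨i, hi, e⟩ := hm
          exact l2 i hi e.symm

lemma strat_wins {H : ℕ} (w : Win (H + 1) ∅ ∅) (β : ℕ → Cell) (hβ : BreakerLegal (strat H) β H) :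
    ∃ T, IsCopy T ∧ ∀ c ∈ T, ∃ i < H + 1, makerMove (strat H) β i = c := by
  have key : HasCopy (st H β (H + 1)).2.1 := by
    rw [st_succ]
    rcases strat_inv w β hβ H le_rfl with h | h
    · exact h.insert _
    · have g := (mv_good (st H β H)).2.2
      rw [st_fst] at g
      rcases g h with g | g
      · exact g
      · obtain ⟨b, hb⟩ := Infinite.exists_notMem_finset
          (insert (mv (st H β H)) (st H β H).2.1 ∪ (st H β H).2.2)
        rw [Finset.mem_union, not_or] at hb
        have := g b hb.1 hb.2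
        rw [Nat.sub_self] at this
        exact this.elim
  obtain ⟨T, h1, h2⟩ := key
  exact ⟨T, h1, fun c hc => (mem_M _ _ _ _).1 (h2 c hc)⟩

end Vale.Agent.P062
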