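import Vale.Agent.P062.TabA0
import Vale.Agent.P062.TabA1
import Vale.Agent.P062.TabA2
import Vale.Agent.P062.TabA3

namespace Vale.Agent.P062

open Tr

noncomputable def tA : Tr := nd tA_0 tA_1 tA_2 tA_3

end Vale.Agent.P062
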